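import Vale.Agent.P032.H154.SplitTop

/-!
# P032: the degree theorem, top

`NoThree T` (868): no point with at least four colours has three points with at least four colours
on its unit circle.
`XDeg` : no frame `DF` with `NoSplit` and `NoThree`.
`exists_deg` : from `XDeg` alone, a statement in the plane; `handDeg` : the same in the words of
Mathlib.
-/

open Set Filter Topology Metric

noncomputable section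

namespace Vale.Agent.P032.H154

open Vale.Agent.P032.Six Vale.Agent.P032.S5.H843 Vale.Agent.P032.S5.H926 Vale.Agent.P032.Words6
  Vale.Agent.P032.S5.H138

/-- degree at most two in the frame -/
theorem noThree_of {U : Fin 6 → Set (EuclideanSpace ℝ (Fin 2))}
    {φ : ℂ ≃ₗᵢ[ℝ] EuclideanSpace ℝ (Fin 2)} {T : ℂ → Set (Fin 6)} (h4 : ∀ z, (T z).ncard ≤ 4)
    (hM : ∀ z, (T z).ncard = 4 → MSU U (T z) (φ z))
    (hcon : ¬ ∃ z y1 y2 y3, ∃ S S1 S2 S3 : Set (Fin 6), MSU U S z ∧ MSU U S1 y1 ∧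
      MSU U S2 y2 ∧ MSU U S3 y3 ∧ dist y1 z = 1 ∧ dist y2 z = 1 ∧ dist y3 z = 1 ∧
      y1 ≠ y2 ∧ y1 ≠ y3 ∧ y2 ≠ y3) : NoThree T := by
  intro z y1 y2 y3 hz d1 d2 d3 h1 h2 h3
  by_contra hne
  push Not at hne
  obtain ⟨n1, n2, n3⟩ := hne
  have e : ∀ w, 4 ≤ (T w).ncard → MSU U (T w) (φ w) := fun w hw => hM w (le_antisymm (h4 w) hw)
  exact hcon ⟨φ z, φ y1, φ y2, φ y3, T z, T y1, T y2, T y3, e z hz, e y1 h1, e y2 h2, e y3 h3,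
    by rw [φ.dist_map]; exact d1, by rw [φ.dist_map]; exact d2, by rw [φ.dist_map]; exact d3,
    φ.injective.ne n1, φ.injective.ne n2, φ.injective.ne n3⟩

/-- **Statement in the plane**, from the degree block. -/
theorem exists_deg (HX : XDeg) {U : Fin 6 → Set (EuclideanSpace ℝ (Fin 2))}
    (hU : ∀ i, Maximal (fun W : Set (EuclideanSpace ℝ (Fin 2)) =>
      IsOpen W ∧ ∀ x ∈ W, ∀ y ∈ W, dist x y ≠ 1) (U i))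
    (hd : Dense (⋃ i, U i)) :
    (∃ z z', dist z z' = 1 ∧ z ∈ XU U 4 ∧ z' ∈ XU U 3) ∨
      (∃ z y1 y2 y3, ∃ S S1 S2 S3 : Set (Fin 6), MSU U S z ∧ MSU U S1 y1 ∧
        MSU U S2 y2 ∧ MSU U S3 y3 ∧ dist y1 z = 1 ∧ dist y2 z = 1 ∧ dist y3 z = 1 ∧
        y1 ≠ y2 ∧ y1 ≠ y3 ∧ y2 ≠ y3) ∨
      ∃ z v q, ∃ S X Y : Set (Fin 6), MSU U S z ∧ X.ncard = 3 ∧ Y.ncard = 3 ∧
        dist v z = 1 ∧ dist q z = 1 ∧ SufU U X v ∧ SufU U Y q ∧ S ⊆ X ∪ Y := by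
  by_contra hcon
  rw [not_or, not_or] at hcon
  obtain ⟨hcon1, hcon2, hcon3⟩ := hcon
  obtain ⟨φ, T, h1, h2, h3, hM, hs⟩ := exists_frame6 hU hd
    fun z z' h4 h5 h6 => hcon1 ⟨z, z', h4, h5, h6⟩
  have hN := noSplit_of hM hs hcon3
  have hF := df_of_nc' h1 h2 h3 hN.noComp
  exact HX _ T hF hN (noThree_of hF.le4 hM hcon2)


/-- the degree theorem in the words of Mathlib -/
theorem handDeg (HX : XDeg)
    (U : Fin 6 → Set (EuclideanSpace ℝ (Fin 2))) (hd : Dense (⋃ i, U i))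
    (hU : ∀ i, Maximal (fun W : Set (EuclideanSpace ℝ (Fin 2)) =>
      IsOpen W ∧ ∀ x ∈ W, ∀ y ∈ W, dist x y ≠ 1) (U i)) :
    (∃ z z', dist z z' = 1 ∧
      (∀ s : Set (Fin 6), s.ncard ≤ 4 → z ∈ closure ((⋃ j, U j) \ ⋃ i ∈ s, U i)) ∧
      ∀ s : Set (Fin 6), s.ncard ≤ 3 → z' ∈ closure ((⋃ j, U j) \ ⋃ i ∈ s, U i)) ∨
    (∃ z y1 y2 y3, ∃ S S1 S2 S3 : Set (Fin 6),
      (S.ncard = 4 ∧ z ∉ closure ((⋃ j, U j) \ ⋃ i ∈ S, U i) ∧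
        ∀ s ⊂ S, z ∈ closure ((⋃ j, U j) \ ⋃ i ∈ s, U i)) ∧
      (S1.ncard = 4 ∧ y1 ∉ closure ((⋃ j, U j) \ ⋃ i ∈ S1, U i) ∧
        ∀ s ⊂ S1, y1 ∈ closure ((⋃ j, U j) \ ⋃ i ∈ s, U i)) ∧
      (S2.ncard = 4 ∧ y2 ∉ closure ((⋃ j, U j) \ ⋃ i ∈ S2, U i) ∧
        ∀ s ⊂ S2, y2 ∈ closure ((⋃ j, U j) \ ⋃ i ∈ s, U i)) ∧
      (S3.ncard = 4 ∧ y3 ∉ closure ((⋃ j, U j) \ ⋃ i ∈ S3, U i) ∧
        ∀ s ⊂ S3, y3 ∈ closure ((⋃ j, U j) \ ⋃ i ∈ s, U i)) ∧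
      dist y1 z = 1 ∧ dist y2 z = 1 ∧ dist y3 z = 1 ∧ y1 ≠ y2 ∧ y1 ≠ y3 ∧ y2 ≠ y3) ∨
    ∃ z v q, ∃ S X Y : Set (Fin 6),
      (S.ncard = 4 ∧ z ∉ closure ((⋃ j, U j) \ ⋃ i ∈ S, U i) ∧
        ∀ s ⊂ S, z ∈ closure ((⋃ j, U j) \ ⋃ i ∈ s, U i)) ∧
      X.ncard = 3 ∧ Y.ncard = 3 ∧ dist v z = 1 ∧ dist q z = 1 ∧
      v ∉ closure ((⋃ j, U j) \ ⋃ i ∈ X, U i) ∧ q ∉ closure ((⋃ j, U j) \ ⋃ i ∈ Y, U i) ∧
      S ⊆ X ∪ Y :=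
  exists_deg HX hU hd

end Vale.Agent.P032.H154
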