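import Vale.Agent.P032.H154.StarDef
import Vale.Agent.P032.H416.Top6

/-!
# P032: the star theorem, top

`exists_frame_all` : the frame of a maximal family.
`exists_star` : from the three blocks `Pair5T`, `NoCompT`, `XDegC`.
`exists_star_comp`, `exists_star_split` : without `NoCompT`.
`exists_star_inf` : with the pairs of orders five and four at points that are not isolated.
-/

open Set Filter Topology Metric

noncomputable section

namespace Vale.Agent.P032.H154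

open Vale.Agent.P032.Six Vale.Agent.P032.S5.H843 Vale.Agent.P032.S5.H926 Vale.Agent.P032.Words6
  Vale.Agent.P032.S5.H138

/-- `S` consists of at least four indices, the sets `U i`, `i ∈ S`, suffice near `x` and for no
proper subset of `S` they suffice -/
def MS4 {E : Type*} [PseudoMetricSpace E] (U : Fin 6 → Set E) (S : Set (Fin 6)) (x : E) : Prop :=
  4 ≤ S.ncard ∧ x ∉ closure ((⋃ j, U j) \ ⋃ i ∈ S, U i) ∧
    ∀ s ⊂ S, x ∈ closure ((⋃ j, U j) \ ⋃ i ∈ s, U i)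

/-- arbitrarily near `x` there are points near which the set `U i` alone suffices -/
def PureU {E : Type*} [PseudoMetricSpace E] (U : Fin 6 → Set E) (i : Fin 6) (x : E) : Prop :=
  x ∈ closure {w | w ∉ closure ((⋃ j, U j) \ U i)}

theorem PureU_of_irr {U : Fin 6 → Set (EuclideanSpace ℝ (Fin 2))}
    {φ : ℂ ≃ₗᵢ[ℝ] EuclideanSpace ℝ (Fin 2)} {T : ℂ → Set (Fin 6)}
    (h : Irr (fun i => φ ⁻¹' U i) T) {x : ℂ} {i : Fin 6} (hi : i ∈ T x) : PureU U i (φ x) := by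
  have h1 : x ∈ closure {w : ℂ | φ w ∉ closure ((⋃ j, U j) \ U i)} := by
    refine mem_closure_iff_frequently.2 ((h.pure x i hi).mono fun w hw => ?_)
    have h2 := Irr_suff h w
    rw [hw] at h2
    intro h3
    refine h2 ((hcdf6 φ {i} w).2 ?_)
    simpa only [mem_singleton_iff, iUnion_iUnion_eq_left] using h3
  have h2 : closure {w : ℂ | φ w ∉ closure ((⋃ j, U j) \ U i)} =
      φ ⁻¹' closure {w | w ∉ closure ((⋃ j, U j) \ U i)} :=
    (φ.toHomeomorph.preimage_closure {w | w ∉ closure ((⋃ j, U j) \ U i)}).symm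
  rw [h2] at h1
  exact h1

theorem SufU_of_irr {U : Fin 6 → Set (EuclideanSpace ℝ (Fin 2))}
    {φ : ℂ ≃ₗᵢ[ℝ] EuclideanSpace ℝ (Fin 2)} {T : ℂ → Set (Fin 6)}
    (h : Irr (fun i => φ ⁻¹' U i) T) (x : ℂ) : SufU U (T x) (φ x) :=
  fun hz => Irr_suff h x ((hcdf6 φ _ x).2 hz)

theorem MS4_of_mn {U : Fin 6 → Set (EuclideanSpace ℝ (Fin 2))}
    {φ : ℂ ≃ₗᵢ[ℝ] EuclideanSpace ℝ (Fin 2)} {T : ℂ → Set (Fin 6)}
    (h : Irr (fun i => φ ⁻¹' U i) T) (hmin : Mn (fun i => φ ⁻¹' U i) T)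
    (hd : Dense (⋃ i, U i)) {x : ℂ} (hx : 4 ≤ (T x).ncard) : MS4 U (T x) (φ x) := by
  have hd' : Dense (⋃ i, φ ⁻¹' U i) := by
    rw [← preimage_iUnion]
    exact hd.preimage φ.toHomeomorph.isOpenMap
  refine ⟨hx, SufU_of_irr h x, fun s hs => ?_⟩
  by_contra hcon
  exact hmin x hx s hs.subset hs.ne (suf_of_notMem hd' fun h1 => hcon ((hcdf6 φ s x).1 h1))

/-- **the frame of a maximal family** -/
theorem exists_frame_all {U : Fin 6 → Set (EuclideanSpace ℝ (Fin 2))}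
    (hU : ∀ i, Maximal (fun W : Set (EuclideanSpace ℝ (Fin 2)) =>
      IsOpen W ∧ ∀ x ∈ W, ∀ y ∈ W, dist x y ≠ 1) (U i))
    (hd : Dense (⋃ i, U i)) :
    ∃ (φ : ℂ ≃ₗᵢ[ℝ] EuclideanSpace ℝ (Fin 2)) (T : ℂ → Set (Fin 6)),
      Irr (fun i => φ ⁻¹' U i) T ∧ Mn (fun i => φ ⁻¹' U i) T := by
  let φ : ℂ ≃ₗᵢ[ℝ] EuclideanSpace ℝ (Fin 2) := Complex.orthonormalBasisOneI.repr
  have hU' : ∀ i, Maximal (fun W : Set ℂ => IsOpen W ∧ ∀ x ∈ W, ∀ y ∈ W, dist x y ≠ 1)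
      (φ ⁻¹' U i) := fun i => maximal_preimage (hU i) φ
  have hd' : Dense (⋃ i, φ ⁻¹' U i) := by
    rw [← preimage_iUnion]
    exact hd.preimage φ.toHomeomorph.isOpenMap
  have hM := Mx_of_maximal hU' hd'
  obtain ⟨T, hT, hmin, -⟩ := exists_frameN (U := fun i => φ ⁻¹' U i) hM
    (fun i x hx => (mem_iff_of_maximal (hU' i) x).2 hx) (N := fun _ => 6)
    (fun x => Filter.Eventually.of_forall fun _ => le_rfl) (fun _ => by norm_num) (fun z _ => by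
      refine ⟨univ, ?_, ?_⟩
      · exact (Set.ncard_le_card _).trans (by simp)
      · filter_upwards with w
        by_cases hw : w ∈ XX (fun i => φ ⁻¹' U i)
        · obtain ⟨i, hi⟩ := hM.Kst_nonempty w
          exact ⟨i, mem_univ _, Or.inr ⟨hw, Kst_sub w hi⟩⟩
        · have h1 : ∃ i, w ∈ φ ⁻¹' U i := by simpa [XX] using hw
          obtain ⟨i, hi⟩ := h1
          exact ⟨i, mem_univ _, Or.inl hi⟩)
  exact ⟨φ, T, hT, hmin⟩

/-- degree at most two in the frame, all orders -/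
theorem noThree_all {U : Fin 6 → Set (EuclideanSpace ℝ (Fin 2))}
    {φ : ℂ ≃ₗᵢ[ℝ] EuclideanSpace ℝ (Fin 2)} {T : ℂ → Set (Fin 6)}
    (hM : ∀ z, 4 ≤ (T z).ncard → MS4 U (T z) (φ z))
    (hcon : ¬ ∃ z y1 y2 y3, ∃ S S1 S2 S3 : Set (Fin 6), MS4 U S z ∧ MS4 U S1 y1 ∧
      MS4 U S2 y2 ∧ MS4 U S3 y3 ∧ dist y1 z = 1 ∧ dist y2 z = 1 ∧ dist y3 z = 1 ∧
      y1 ≠ y2 ∧ y1 ≠ y3 ∧ y2 ≠ y3) : NoThree T := by
  intro z y1 y2 y3 hz d1 d2 d3 h1 h2 h3
  by_contra hne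
  push Not at hne
  obtain ⟨n1, n2, n3⟩ := hne
  exact hcon ⟨φ z, φ y1, φ y2, φ y3, T z, T y1, T y2, T y3, hM z hz, hM y1 h1, hM y2 h2, hM y3 h3,
    by rw [φ.dist_map]; exact d1, by rw [φ.dist_map]; exact d2, by rw [φ.dist_map]; exact d3,
    φ.injective.ne n1, φ.injective.ne n2, φ.injective.ne n3⟩

/-- the star -/
def StarU (U : Fin 6 → Set (EuclideanSpace ℝ (Fin 2))) : Prop :=
  ∃ z y1 y2 y3, ∃ S S1 S2 S3 : Set (Fin 6), MS4 U S z ∧ MS4 U S1 y1 ∧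
    MS4 U S2 y2 ∧ MS4 U S3 y3 ∧ dist y1 z = 1 ∧ dist y2 z = 1 ∧ dist y3 z = 1 ∧
    y1 ≠ y2 ∧ y1 ≠ y3 ∧ y2 ≠ y3

/-- complementary triples of indices at two non-opposite points of the circle of a point that needs
four indices -/
def CompU (U : Fin 6 → Set (EuclideanSpace ℝ (Fin 2))) : Prop :=
  ∃ z v q, ∃ S X : Set (Fin 6), MSU U S z ∧ X.ncard = 3 ∧ dist v z = 1 ∧ dist q z = 1 ∧
    v ≠ q ∧ dist v q < 2 ∧ SufU U X v ∧ SufU U Xᶜ q ∧ (∀ i ∈ X, PureU U i v) ∧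
    ∀ i ∉ X, PureU U i q

/-- the indices of a point that needs four indices are covered by two triples of indices of two
points of its circle -/
def SplitU (U : Fin 6 → Set (EuclideanSpace ℝ (Fin 2))) : Prop :=
  ∃ z v q, ∃ S X Y : Set (Fin 6), MSU U S z ∧ X.ncard = 3 ∧ Y.ncard = 3 ∧ v ≠ q ∧
    dist v z = 1 ∧ dist q z = 1 ∧ SufU U X v ∧ SufU U Y q ∧ (∀ i ∈ X, PureU U i v) ∧
    (∀ i ∈ Y, PureU U i q) ∧ S ⊆ X ∪ Y

theorem noComp_of2 {U : Fin 6 → Set (EuclideanSpace ℝ (Fin 2))}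
    {φ : ℂ ≃ₗᵢ[ℝ] EuclideanSpace ℝ (Fin 2)} {T : ℂ → Set (Fin 6)}
    (h : Irr (fun i => φ ⁻¹' U i) T)
    (hM : ∀ z, (T z).ncard = 4 → MSU U (T z) (φ z))
    (hcon : ¬ CompU U) : NoComp T := by
  intro z h4 v q hv hq hv3 hq3
  by_contra hne
  have hvq : v ≠ q := by
    intro hvq
    rw [← hvq] at hq3
    obtain ⟨i, hi⟩ := Set.nonempty_of_ncard_ne_zero (by rw [hv3]; norm_num : (T v).ncard ≠ 0)
    have h5 : i ∈ (T v)ᶜ := hq3 ▸ hi
    exact h5 hi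
  have hlt : dist v q < 2 := by
    have h5 : dist v q ≤ 2 := by
      have := dist_triangle_right v q z
      linarith
    exact lt_of_le_of_ne h5 fun h6 => hne (opp_of_dist hv hq h6)
  exact hcon ⟨φ z, φ v, φ q, T z, T v, hM z h4, hv3,
    by rw [φ.dist_map]; exact hv, by rw [φ.dist_map]; exact hq, φ.injective.ne hvq,
    by rw [φ.dist_map]; exact hlt, SufU_of_irr h v, hq3 ▸ SufU_of_irr h q,
    fun i hi => PureU_of_irr h hi, fun i hi => PureU_of_irr h (hq3 ▸ hi)⟩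

theorem noSplit_of2 {U : Fin 6 → Set (EuclideanSpace ℝ (Fin 2))}
    {φ : ℂ ≃ₗᵢ[ℝ] EuclideanSpace ℝ (Fin 2)} {T : ℂ → Set (Fin 6)}
    (h : Irr (fun i => φ ⁻¹' U i) T)
    (hM : ∀ z, (T z).ncard = 4 → MSU U (T z) (φ z)) (hcon : ¬ SplitU U) : NoSplit T := by
  intro z v q hv hq h4 hv3 hq3 hsub
  have hne : v ≠ q := by
    intro hvq
    rw [← hvq, union_self] at hsub
    have := Set.ncard_le_ncard hsub (Set.toFinite _)
    omega
  exact hcon ⟨φ z, φ v, φ q, T z, T v, T q, hM z h4, hv3, hq3, φ.injective.ne hne,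
    by rw [φ.dist_map]; exact hv,
    by rw [φ.dist_map]; exact hq, SufU_of_irr h v, SufU_of_irr h q,
    fun i hi => PureU_of_irr h hi, fun i hi => PureU_of_irr h hi, hsub⟩

theorem MSU_of_MS4 {U : Fin 6 → Set (EuclideanSpace ℝ (Fin 2))} {S : Set (Fin 6)}
    {x : EuclideanSpace ℝ (Fin 2)} (h : MS4 U S x) (h4 : S.ncard = 4) : MSU U S x :=
  ⟨h4, h.2⟩

/-- **the star theorem**, from the statement on frames -/
theorem exists_star (H : Star) {U : Fin 6 → Set (EuclideanSpace ℝ (Fin 2))}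
    (hU : ∀ i, Maximal (fun W : Set (EuclideanSpace ℝ (Fin 2)) =>
      IsOpen W ∧ ∀ x ∈ W, ∀ y ∈ W, dist x y ≠ 1) (U i))
    (hd : Dense (⋃ i, U i)) : StarU U := by
  by_contra hcon
  obtain ⟨φ, T, h1, h2⟩ := exists_frame_all hU hd
  exact H _ T h1 h2 (noThree_all (fun z hz => MS4_of_mn h1 h2 hd hz) hcon)

theorem star_of (P5 : Pair5T) (NC : NoCompT) (HX : XDegC) : Star := fun U T h1 h2 h3 =>
  have h5 := P5 U T h1 h2 h3
  have hN := NC U T h1 h2 h5 h3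
  HX U T (df_of_nc' h1 h2 h5 hN) hN h3

/-- without `NoCompT` -/
theorem exists_star_comp (P5 : Pair5T) (HX : XDegC) {U : Fin 6 → Set (EuclideanSpace ℝ (Fin 2))}
    (hU : ∀ i, Maximal (fun W : Set (EuclideanSpace ℝ (Fin 2)) =>
      IsOpen W ∧ ∀ x ∈ W, ∀ y ∈ W, dist x y ≠ 1) (U i))
    (hd : Dense (⋃ i, U i)) : StarU U ∨ CompU U := by
  by_contra hcon
  rw [not_or] at hcon
  obtain ⟨φ, T, h1, h2⟩ := exists_frame_all hU hd
  have h3 := noThree_all (fun z hz => MS4_of_mn h1 h2 hd hz) hcon.1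
  have h5 := P5 _ T h1 h2 h3
  have hN := noComp_of2 h1 (fun z hz => MSU_of_MS4 (MS4_of_mn h1 h2 hd hz.ge) hz) hcon.2
  exact HX _ T (df_of_nc' h1 h2 h5 hN) hN h3

/-- without `NoCompT`, from `XDeg` -/
theorem exists_star_split (P5 : Pair5T) (HX : XDeg) {U : Fin 6 → Set (EuclideanSpace ℝ (Fin 2))}
    (hU : ∀ i, Maximal (fun W : Set (EuclideanSpace ℝ (Fin 2)) =>
      IsOpen W ∧ ∀ x ∈ W, ∀ y ∈ W, dist x y ≠ 1) (U i))
    (hd : Dense (⋃ i, U i)) : StarU U ∨ SplitU U := by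
  by_contra hcon
  rw [not_or] at hcon
  obtain ⟨φ, T, h1, h2⟩ := exists_frame_all hU hd
  have h3 := noThree_all (fun z hz => MS4_of_mn h1 h2 hd hz) hcon.1
  have h5 := P5 _ T h1 h2 h3
  have hN := noSplit_of2 h1 (fun z hz => MSU_of_MS4 (MS4_of_mn h1 h2 hd hz.ge) hz) hcon.2
  exact HX _ T (df_of_nc' h1 h2 h5 hN.noComp) hN h3

/-- without `Pair5T` -/
theorem exists_pair_star (NC : NoCompT) (HX : XDegC)
    {U : Fin 6 → Set (EuclideanSpace ℝ (Fin 2))}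
    (hU : ∀ i, Maximal (fun W : Set (EuclideanSpace ℝ (Fin 2)) =>
      IsOpen W ∧ ∀ x ∈ W, ∀ y ∈ W, dist x y ≠ 1) (U i))
    (hd : Dense (⋃ i, U i)) :
    (∃ z z', dist z z' = 1 ∧ z ∈ XU U 4 ∧ z' ∈ XU U 3) ∨
      ∃ z y1 y2 y3, ∃ S S1 S2 S3 : Set (Fin 6), MSU U S z ∧ MSU U S1 y1 ∧
        MSU U S2 y2 ∧ MSU U S3 y3 ∧ dist y1 z = 1 ∧ dist y2 z = 1 ∧ dist y3 z = 1 ∧
        y1 ≠ y2 ∧ y1 ≠ y3 ∧ y2 ≠ y3 := by
  by_contra hcon
  rw [not_or] at hcon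
  obtain ⟨hcon1, hcon2⟩ := hcon
  obtain ⟨φ, T, h1, h2, h3, hM, hs⟩ := exists_frame6 hU hd
    fun z z' h4 h5 h6 => hcon1 ⟨z, z', h4, h5, h6⟩
  have hT : NoThree T := by
    intro z y1 y2 y3 hz d1 d2 d3 k1 k2 k3
    by_contra hne
    push Not at hne
    obtain ⟨n1, n2, n3⟩ := hne
    have e : ∀ w w', dist w w' = 1 → 4 ≤ (T w).ncard → 4 ≤ (T w').ncard → (T w).ncard = 4 := by
      intro w w' hd hw hw'
      by_contra hcon
      exact h3 w w' hd (by omega) hw'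
    exact hcon2 ⟨φ z, φ y1, φ y2, φ y3, T z, T y1, T y2, T y3,
      hM z (e z y1 (by rw [dist_comm]; exact d1) hz k1), hM y1 (e y1 z d1 k1 hz),
      hM y2 (e y2 z d2 k2 hz), hM y3 (e y3 z d3 k3 hz),
      by rw [φ.dist_map]; exact d1, by rw [φ.dist_map]; exact d2, by rw [φ.dist_map]; exact d3,
      φ.injective.ne n1, φ.injective.ne n2, φ.injective.ne n3⟩
  have hN := NC _ T h1 h2 h3 hT
  exact HX _ T (df_of_nc' h1 h2 h3 hN) hN hT

/-- a unit pair of orders five and four at a limit of points with three pure indices -/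
def PairInfU (U : Fin 6 → Set (EuclideanSpace ℝ (Fin 2))) : Prop :=
  ∃ z z', ∃ S S' : Set (Fin 6), dist z z' = 1 ∧ MS4 U S z ∧ 5 ≤ S.ncard ∧ MS4 U S' z' ∧
    ∃ᶠ w in 𝓝[≠] z, ∃ R : Set (Fin 6), R.ncard = 3 ∧ ∀ i ∈ R, PureU U i w

theorem noPair5_of2 {U : Fin 6 → Set (EuclideanSpace ℝ (Fin 2))}
    {φ : ℂ ≃ₗᵢ[ℝ] EuclideanSpace ℝ (Fin 2)} {T : ℂ → Set (Fin 6)}
    (h : Irr (fun i => φ ⁻¹' U i) T) (hmin : Mn (fun i => φ ⁻¹' U i) T)
    (hd : Dense (⋃ i, U i))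
    (hI : ∀ z v, dist z v = 1 → 5 ≤ (T z).ncard → 4 ≤ (T v).ncard → ¬ Tame T z)
    (hcon : ¬ PairInfU U) : NoPair5 T := by
  intro z v hzv hz hv
  refine hcon ⟨φ z, φ v, T z, T v, by rw [φ.dist_map]; exact hzv,
    MS4_of_mn h hmin hd (by omega), hz, MS4_of_mn h hmin hd hv, ?_⟩
  have h1 : ∃ᶠ w in 𝓝[≠] z, ¬ (T w).ncard ≤ 2 :=
    Filter.not_eventually.1 (hI z v hzv hz hv)
  have h2 : Tendsto φ (𝓝[≠] z) (𝓝[≠] (φ z)) := by
    refine tendsto_nhdsWithin_iff.2 ⟨φ.continuous.continuousAt.tendsto.mono_left inf_le_left, ?_⟩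
    filter_upwards [self_mem_nhdsWithin] with w hw h3
    exact hw (φ.injective h3)
  refine h2.frequently (h1.mono fun w hw => ?_)
  obtain ⟨R, hR, hR3⟩ := Set.exists_subset_card_eq (s := T w) (n := 3) (by omega)
  exact ⟨R, hR3, fun i hi => PureU_of_irr h (hR hi)⟩

/-- with the pairs of orders five and four at points that are not isolated -/
theorem exists_star_inf (P5 : Pair5TI) (NC : NoCompT) (HX : XDegC)
    {U : Fin 6 → Set (EuclideanSpace ℝ (Fin 2))}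
    (hU : ∀ i, Maximal (fun W : Set (EuclideanSpace ℝ (Fin 2)) =>
      IsOpen W ∧ ∀ x ∈ W, ∀ y ∈ W, dist x y ≠ 1) (U i))
    (hd : Dense (⋃ i, U i)) : PairInfU U ∨ StarU U := by
  by_contra hcon
  rw [not_or] at hcon
  obtain ⟨φ, T, h1, h2⟩ := exists_frame_all hU hd
  have h3 := noThree_all (fun z hz => MS4_of_mn h1 h2 hd hz) hcon.2
  have h5 := noPair5_of2 h1 h2 hd (P5 _ T h1 h2 h3) hcon.1
  have hN := NC _ T h1 h2 h5 h3
  exact HX _ T (df_of_nc' h1 h2 h5 hN) hN h3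

theorem exists_star_inf_comp (P5 : Pair5TI) (HX : XDegC)
    {U : Fin 6 → Set (EuclideanSpace ℝ (Fin 2))}
    (hU : ∀ i, Maximal (fun W : Set (EuclideanSpace ℝ (Fin 2)) =>
      IsOpen W ∧ ∀ x ∈ W, ∀ y ∈ W, dist x y ≠ 1) (U i))
    (hd : Dense (⋃ i, U i)) : PairInfU U ∨ StarU U ∨ CompU U := by
  by_contra hcon
  rw [not_or, not_or] at hcon
  obtain ⟨φ, T, h1, h2⟩ := exists_frame_all hU hd
  have h3 := noThree_all (fun z hz => MS4_of_mn h1 h2 hd hz) hcon.2.1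
  have h5 := noPair5_of2 h1 h2 hd (P5 _ T h1 h2 h3) hcon.1
  have hN := noComp_of2 h1 (fun z hz => MSU_of_MS4 (MS4_of_mn h1 h2 hd hz.ge) hz) hcon.2.2
  exact HX _ T (df_of_nc' h1 h2 h5 hN) hN h3

theorem exists_star_inf_split (P5 : Pair5TI) (HX : XDeg)
    {U : Fin 6 → Set (EuclideanSpace ℝ (Fin 2))}
    (hU : ∀ i, Maximal (fun W : Set (EuclideanSpace ℝ (Fin 2)) =>
      IsOpen W ∧ ∀ x ∈ W, ∀ y ∈ W, dist x y ≠ 1) (U i))
    (hd : Dense (⋃ i, U i)) : PairInfU U ∨ StarU U ∨ SplitU U := by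
  by_contra hcon
  rw [not_or, not_or] at hcon
  obtain ⟨φ, T, h1, h2⟩ := exists_frame_all hU hd
  have h3 := noThree_all (fun z hz => MS4_of_mn h1 h2 hd hz) hcon.2.1
  have h5 := noPair5_of2 h1 h2 hd (P5 _ T h1 h2 h3) hcon.1
  have hN := noSplit_of2 h1 (fun z hz => MSU_of_MS4 (MS4_of_mn h1 h2 hd hz.ge) hz) hcon.2.2
  exact HX _ T (df_of_nc' h1 h2 h5 hN.noComp) hN h3

end Vale.Agent.P032.H154
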