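import Vale.Agent.P032.H154.Hand
import Vale.Agent.P032.H154.StarTop

/-!
# P032: orders at most four

`exists_four` : every maximal family of six open sets without unit distances and with dense union
has a unit pair of a point near which no four of the sets suffice and a point near which no three
suffice, or complementary triples of indices at two points of the circle of a point that needs four
indices, or near every point of the plane at most four of the sets are needed and there is a unit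
pair of a two-pair point and a point that needs four indices.
-/

open Set Filter Topology Metric

noncomputable section

namespace Vale.Agent.P032.H154

open Vale.Agent.P032.Six Vale.Agent.P032.S5.H843 Vale.Agent.P032.S5.H926 Vale.Agent.P032.Words6
  Vale.Agent.P032.S5.H138

theorem clo_of_pureU {U : Fin 6 → Set (EuclideanSpace ℝ (Fin 2))} (hd : Dense (⋃ i, U i))
    {i : Fin 6} {v : EuclideanSpace ℝ (Fin 2)} (h : PureU U i v) : v ∈ closure (U i) := by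
  have h1 : {w | w ∉ closure ((⋃ j, U j) \ U i)} ⊆ closure (U i) := by
    intro w hw
    have h2 : (⋃ j, U j) ⊆ U i ∪ ((⋃ j, U j) \ U i) := by
      intro x hx
      by_cases h : x ∈ U i
      · exact Or.inl h
      · exact Or.inr ⟨hx, h⟩
    have h3 := closure_mono h2 (hd w)
    rw [closure_union] at h3
    exact h3.resolve_right hw
  exact closure_minimal h1 isClosed_closure h

theorem DSU6 {U : Fin 6 → Set (EuclideanSpace ℝ (Fin 2))} (φ : ℂ ≃ₗᵢ[ℝ] EuclideanSpace ℝ (Fin 2))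
    {S : Set (Fin 6)} {z : ℂ} (h : DSU (fun i => φ ⁻¹' U i) S z) : DSU U S (φ z) := by
  have hcl : ∀ S : Set (EuclideanSpace ℝ (Fin 2)), closure (φ ⁻¹' S) = φ ⁻¹' closure S :=
    fun S => (φ.toHomeomorph.preimage_closure S).symm
  obtain ⟨h1, a, b, c, d, h2, p, q, hp, hq, r, hr, h3, h4⟩ := h
  refine ⟨MSU6 φ h1, a, b, c, d, h2, φ p, φ q, by rw [φ.dist_map]; exact hp,
    by rw [φ.dist_map]; exact hq, r, hr, ?_, ?_⟩
  · intro y hy hyp
    have e : φ (φ.symm y) = y := φ.apply_symm_apply y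
    rw [← e, φ.dist_map] at hy hyp
    obtain ⟨h5, h6, h7⟩ := h3 _ hy hyp
    rw [hcl, mem_preimage, e] at h5 h6
    rw [hcdf6, e] at h7
    exact ⟨h5, h6, h7⟩
  · intro y hy hyp
    have e : φ (φ.symm y) = y := φ.apply_symm_apply y
    rw [← e, φ.dist_map] at hy hyp
    obtain ⟨h5, h6, h7⟩ := h4 _ hy hyp
    rw [hcl, mem_preimage, e] at h5 h6
    rw [hcdf6, e] at h7
    exact ⟨h5, h6, h7⟩

/-- **Statement in the plane.** -/
theorem exists_four {U : Fin 6 → Set (EuclideanSpace ℝ (Fin 2))}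
    (hU : ∀ i, Maximal (fun W : Set (EuclideanSpace ℝ (Fin 2)) =>
      IsOpen W ∧ ∀ x ∈ W, ∀ y ∈ W, dist x y ≠ 1) (U i))
    (hd : Dense (⋃ i, U i)) :
    (∃ z z', dist z z' = 1 ∧ z ∈ XU U 4 ∧ z' ∈ XU U 3) ∨
      (∃ z v q, ∃ S X : Set (Fin 6), MSU U S z ∧ X.ncard = 3 ∧ dist v z = 1 ∧ dist q z = 1 ∧
        dist v q < 2 ∧ (SufU U X v ∧ ∀ i ∈ X, v ∈ closure (U i)) ∧ SufU U Xᶜ q ∧
        ∀ i ∈ Xᶜ, q ∈ closure (U i)) ∨
      ((∀ z, ∃ s : Set (Fin 6), s.ncard ≤ 4 ∧ SufU U s z) ∧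
        ∃ z z', ∃ S S' : Set (Fin 6), dist z z' = 1 ∧ DSU U S z ∧ MSU U S' z') := by
  by_contra hcon
  rw [not_or, not_or] at hcon
  obtain ⟨hcon1, hcon2, hcon3⟩ := hcon
  obtain ⟨φ, T, h1, h2, h3, hM, hs⟩ := exists_frame6 hU hd
    fun z z' h4 h5 h6 => hcon1 ⟨z, z', h4, h5, h6⟩
  have hN := noComp_of2 h1 hM fun ⟨z, v, q, S, X, e1, e2, e3, e4, _, e5, e6, e7, e8, e9⟩ =>
    hcon2 ⟨z, v, q, S, X, e1, e2, e3, e4, e5, ⟨e6, fun i hi => clo_of_pureU hd (e8 i hi)⟩, e7,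
      fun i hi => clo_of_pureU hd (e9 i hi)⟩
  have hF := df_of_nc' h1 h2 h3 hN
  refine hcon3 ⟨fun z => ?_, ?_⟩
  · have e : φ (φ.symm z) = z := φ.apply_symm_apply z
    have h5 := hs (φ.symm z)
    rw [e] at h5
    exact ⟨T (φ.symm z), hF.le4 _, h5⟩
  · have hd' : Dense (⋃ i, φ ⁻¹' U i) := by
      rw [← preimage_iUnion]
      exact hd.preimage φ.toHomeomorph.isOpenMap
    obtain ⟨z, a, b, c, d, hD, y, hy, hy4⟩ := h1.exists_dpair' h2 hF.le4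
    exact ⟨φ z, φ y, T z, T y, by rw [φ.dist_map, dist_comm]; exact hy,
      DSU6 φ (DSU_of_frame h1 h2 hd' hD), hM y (le_antisymm (hF.le4 y) (by omega))⟩

/-- in the words of Mathlib -/
theorem handFour :
    (∀ V : Fin 6 → Set (EuclideanSpace ℝ (Fin 2)), (∀ i, IsOpen (V i)) →
      (∀ i, ∀ x ∈ V i, ∀ y ∈ V i, dist x y ≠ 1) → Dense (⋃ i, V i) →
      ∃ U : Fin 6 → Set (EuclideanSpace ℝ (Fin 2)), (∀ i, V i ⊆ U i) ∧ Dense (⋃ i, U i) ∧
        ∀ i, Maximal (fun W : Set (EuclideanSpace ℝ (Fin 2)) =>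
          IsOpen W ∧ ∀ x ∈ W, ∀ y ∈ W, dist x y ≠ 1) (U i)) ∧
    (∀ U : Fin 6 → Set (EuclideanSpace ℝ (Fin 2)), Dense (⋃ i, U i) →
      (∀ i, Maximal (fun W : Set (EuclideanSpace ℝ (Fin 2)) =>
        IsOpen W ∧ ∀ x ∈ W, ∀ y ∈ W, dist x y ≠ 1) (U i)) →
      (∃ z z', dist z z' = 1 ∧
        (∀ s : Set (Fin 6), s.ncard ≤ 4 → z ∈ closure ((⋃ j, U j) \ ⋃ i ∈ s, U i)) ∧
        ∀ s : Set (Fin 6), s.ncard ≤ 3 → z' ∈ closure ((⋃ j, U j) \ ⋃ i ∈ s, U i)) ∨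
      (∃ z v q, ∃ S X : Set (Fin 6),
        (S.ncard = 4 ∧ z ∉ closure ((⋃ j, U j) \ ⋃ i ∈ S, U i) ∧
          ∀ s ⊂ S, z ∈ closure ((⋃ j, U j) \ ⋃ i ∈ s, U i)) ∧
        X.ncard = 3 ∧ dist v z = 1 ∧ dist q z = 1 ∧ dist v q < 2 ∧
        (v ∉ closure ((⋃ j, U j) \ ⋃ i ∈ X, U i) ∧ ∀ i ∈ X, v ∈ closure (U i)) ∧
        q ∉ closure ((⋃ j, U j) \ ⋃ i ∈ Xᶜ, U i) ∧ ∀ i ∈ Xᶜ, q ∈ closure (U i)) ∨
      ((∀ z, ∃ s : Set (Fin 6), s.ncard ≤ 4 ∧ z ∉ closure ((⋃ j, U j) \ ⋃ i ∈ s, U i)) ∧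
        ∃ z z', ∃ S S' : Set (Fin 6), dist z z' = 1 ∧
          ((S.ncard = 4 ∧ z ∉ closure ((⋃ j, U j) \ ⋃ i ∈ S, U i) ∧
            ∀ s ⊂ S, z ∈ closure ((⋃ j, U j) \ ⋃ i ∈ s, U i)) ∧
          ∃ a b c d : Fin 6, S = {a, b, c, d} ∧
            ∃ p q, dist p z = 1 ∧ dist q z = 1 ∧ ∃ r > 0,
              (∀ y, dist y z = 1 → dist y p < r → y ∈ closure (U a) ∧ y ∈ closure (U b) ∧
                y ∉ closure ((⋃ j, U j) \ ⋃ i ∈ ({a, b} : Set (Fin 6)), U i)) ∧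
              ∀ y, dist y z = 1 → dist y q < r → y ∈ closure (U c) ∧ y ∈ closure (U d) ∧
                y ∉ closure ((⋃ j, U j) \ ⋃ i ∈ ({c, d} : Set (Fin 6)), U i)) ∧
          (S'.ncard = 4 ∧ z' ∉ closure ((⋃ j, U j) \ ⋃ i ∈ S', U i) ∧
            ∀ s ⊂ S', z' ∈ closure ((⋃ j, U j) \ ⋃ i ∈ s, U i)))) :=
  ⟨ext_part, fun _ hd hU => exists_four hU hd⟩

end Vale.Agent.P032.H154
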