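import Vale.Agent.P032.H416.Top5
import Vale.Agent.P032.H987.NoCompJ

/-!
# P032: the statements of the hand-ins, from the blocks

`HandSeven`, `HandPair`, `HandPairComp`, `HandPairFour` are written out with the words of Mathlib
only; `handSeven`, `handPair`, `handPairComp`, `handPairFour` prove them from the blocks.
-/

open Set Filter Topology Metric

noncomputable section

namespace Vale.Agent.P032.H154

open Vale.Agent.P032.Six Vale.Agent.P032.S5.H843 Vale.Agent.P032.S5.H138 Vale.Agent.P032.H987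
  Vale.Agent.P032.S5.H926

/-- the part of the statements on maximal families -/
theorem ext_part (V : Fin 6 → Set (EuclideanSpace ℝ (Fin 2))) (hV : ∀ i, IsOpen (V i))
    (hfree : ∀ i, ∀ x ∈ V i, ∀ y ∈ V i, dist x y ≠ 1) (hd : Dense (⋃ i, V i)) :
    ∃ U : Fin 6 → Set (EuclideanSpace ℝ (Fin 2)), (∀ i, V i ⊆ U i) ∧ Dense (⋃ i, U i) ∧
      ∀ i, Maximal (fun W : Set (EuclideanSpace ℝ (Fin 2)) =>
        IsOpen W ∧ ∀ x ∈ W, ∀ y ∈ W, dist x y ≠ 1) (U i) := by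
  choose U hVU hU using fun i => exists_maximal_ge (hV i) (hfree i)
  exact ⟨U, hVU, hd.mono (iUnion_mono hVU), hU⟩

/-- **the chromatic number of the plane is seven**, from three blocks -/
theorem handSeven (P5 : Pair5) (NC : NoCompB) (HX : XB) :
    IsLeast {k : ℕ | ∃ c : EuclideanSpace ℝ (Fin 2) → Fin k,
      ∀ x y : EuclideanSpace ℝ (Fin 2), dist x y = 1 → c x ≠ c y} 7 := by
  have h6 : ¬ H999.HasCol 6 := not_hasCol_six fun U T h hmin =>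
    no_frame_x NC HX h hmin (P5 U T h hmin)
  exact ⟨H999.seven, fun k hk => (H999.hasCol_iff_of_not_six h6 k).1 hk⟩

/-- from two blocks -/
theorem handPair (NC : NoCompB) (HX : XB) :
    (∀ V : Fin 6 → Set (EuclideanSpace ℝ (Fin 2)), (∀ i, IsOpen (V i)) →
      (∀ i, ∀ x ∈ V i, ∀ y ∈ V i, dist x y ≠ 1) → Dense (⋃ i, V i) →
      ∃ U : Fin 6 → Set (EuclideanSpace ℝ (Fin 2)), (∀ i, V i ⊆ U i) ∧ Dense (⋃ i, U i) ∧
        ∀ i, Maximal (fun W : Set (EuclideanSpace ℝ (Fin 2)) =>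
          IsOpen W ∧ ∀ x ∈ W, ∀ y ∈ W, dist x y ≠ 1) (U i)) ∧
    (∀ U : Fin 6 → Set (EuclideanSpace ℝ (Fin 2)), Dense (⋃ i, U i) →
      (∀ i, Maximal (fun W : Set (EuclideanSpace ℝ (Fin 2)) =>
        IsOpen W ∧ ∀ x ∈ W, ∀ y ∈ W, dist x y ≠ 1) (U i)) →
      ∃ z z', dist z z' = 1 ∧
        (∀ s : Set (Fin 6), s.ncard ≤ 4 → z ∈ closure ((⋃ j, U j) \ ⋃ i ∈ s, U i)) ∧
        ∀ s : Set (Fin 6), s.ncard ≤ 3 → z' ∈ closure ((⋃ j, U j) \ ⋃ i ∈ s, U i)) :=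
  ⟨ext_part, fun _ hd hU => exists_pair5X NC HX hU hd⟩

/-- from the block `XB` -/
theorem handPairComp (HX : XB) :
    (∀ V : Fin 6 → Set (EuclideanSpace ℝ (Fin 2)), (∀ i, IsOpen (V i)) →
      (∀ i, ∀ x ∈ V i, ∀ y ∈ V i, dist x y ≠ 1) → Dense (⋃ i, V i) →
      ∃ U : Fin 6 → Set (EuclideanSpace ℝ (Fin 2)), (∀ i, V i ⊆ U i) ∧ Dense (⋃ i, U i) ∧
        ∀ i, Maximal (fun W : Set (EuclideanSpace ℝ (Fin 2)) =>
          IsOpen W ∧ ∀ x ∈ W, ∀ y ∈ W, dist x y ≠ 1) (U i)) ∧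
    (∀ U : Fin 6 → Set (EuclideanSpace ℝ (Fin 2)), Dense (⋃ i, U i) →
      (∀ i, Maximal (fun W : Set (EuclideanSpace ℝ (Fin 2)) =>
        IsOpen W ∧ ∀ x ∈ W, ∀ y ∈ W, dist x y ≠ 1) (U i)) →
      (∃ z z', dist z z' = 1 ∧
        (∀ s : Set (Fin 6), s.ncard ≤ 4 → z ∈ closure ((⋃ j, U j) \ ⋃ i ∈ s, U i)) ∧
        ∀ s : Set (Fin 6), s.ncard ≤ 3 → z' ∈ closure ((⋃ j, U j) \ ⋃ i ∈ s, U i)) ∨
      ∃ z v q, ∃ S X : Set (Fin 6),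
        (S.ncard = 4 ∧ z ∉ closure ((⋃ j, U j) \ ⋃ i ∈ S, U i) ∧
          ∀ s ⊂ S, z ∈ closure ((⋃ j, U j) \ ⋃ i ∈ s, U i)) ∧
        X.ncard = 3 ∧ dist v z = 1 ∧ dist q z = 1 ∧ v ≠ q ∧ dist v q < 2 ∧
        v ∉ closure ((⋃ j, U j) \ ⋃ i ∈ X, U i) ∧ q ∉ closure ((⋃ j, U j) \ ⋃ i ∈ Xᶜ, U i)) :=
  ⟨ext_part, fun _ hd hU => exists_pair_comp HX hU hd⟩

/-- from the blocks `NoCompJ`, `Sil6J` -/
theorem handPairFour (htab : ∀ L ∈ Vale.Agent.P032.Words6.H122.Lets35,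
      Vale.Agent.P032.Words6.H358.TreeOK L) (NC : NoCompJ) (HS : Sil6J) :
    (∀ V : Fin 6 → Set (EuclideanSpace ℝ (Fin 2)), (∀ i, IsOpen (V i)) →
      (∀ i, ∀ x ∈ V i, ∀ y ∈ V i, dist x y ≠ 1) → Dense (⋃ i, V i) →
      ∃ U : Fin 6 → Set (EuclideanSpace ℝ (Fin 2)), (∀ i, V i ⊆ U i) ∧ Dense (⋃ i, U i) ∧
        ∀ i, Maximal (fun W : Set (EuclideanSpace ℝ (Fin 2)) =>
          IsOpen W ∧ ∀ x ∈ W, ∀ y ∈ W, dist x y ≠ 1) (U i)) ∧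
    (∀ U : Fin 6 → Set (EuclideanSpace ℝ (Fin 2)), Dense (⋃ i, U i) →
      (∀ i, Maximal (fun W : Set (EuclideanSpace ℝ (Fin 2)) =>
        IsOpen W ∧ ∀ x ∈ W, ∀ y ∈ W, dist x y ≠ 1) (U i)) →
      ∃ z z', dist z z' = 1 ∧
        (((∀ s : Set (Fin 6), s.ncard ≤ 4 → z ∈ closure ((⋃ j, U j) \ ⋃ i ∈ s, U i)) ∧
          ∀ s : Set (Fin 6), s.ncard ≤ 3 → z' ∈ closure ((⋃ j, U j) \ ⋃ i ∈ s, U i)) ∨
        ∃ S S' : Set (Fin 6), S ≠ S' ∧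
          ((S.ncard = 4 ∧ z ∉ closure ((⋃ j, U j) \ ⋃ i ∈ S, U i) ∧
            ∀ s ⊂ S, z ∈ closure ((⋃ j, U j) \ ⋃ i ∈ s, U i)) ∧
          ∃ a b c d : Fin 6, S = {a, b, c, d} ∧
            ∃ p q, dist p z = 1 ∧ dist q z = 1 ∧ ∃ r > 0,
              (∀ y, dist y z = 1 → dist y p < r → y ∈ closure (U a) ∧ y ∈ closure (U b) ∧
                y ∉ closure ((⋃ j, U j) \ ⋃ i ∈ ({a, b} : Set (Fin 6)), U i)) ∧
              ∀ y, dist y z = 1 → dist y q < r → y ∈ closure (U c) ∧ y ∈ closure (U d) ∧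
                y ∉ closure ((⋃ j, U j) \ ⋃ i ∈ ({c, d} : Set (Fin 6)), U i)) ∧
          (S'.ncard = 4 ∧ z' ∉ closure ((⋃ j, U j) \ ⋃ i ∈ S', U i) ∧
            ∀ s ⊂ S', z' ∈ closure ((⋃ j, U j) \ ⋃ i ∈ s, U i)))) :=
  ⟨ext_part, fun _ hd hU => exists_pair4J htab NC HS hU hd⟩

end Vale.Agent.P032.H154
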