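import Vale.Agent.P032.H154.Hand
import Vale.Agent.P032.H416.Top6

/-!
# P032: the statements of the hand-ins of the world without covering pairs
-/

open Set Filter Topology Metric

noncomputable section

namespace Vale.Agent.P032.H154

open Vale.Agent.P032.Six Vale.Agent.P032.S5.H843

/-- from the block `XCov` -/
theorem handPairCov (HX : XCov) :
    (∀ V : Fin 6 → Set (EuclideanSpace ℝ (Fin 2)), (∀ i, IsOpen (V i)) →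
      (∀ i, ∀ x ∈ V i, ∀ y ∈ V i, dist x y ≠ 1) → Dense (⋃ i, V i) →
      ∃ U : Fin 6 → Set (EuclideanSpace ℝ (Fin 2)), (∀ i, V i ⊆ U i) ∧ Dense (⋃ i, U i) ∧
        ∀ i, Maximal (fun W : Set (EuclideanSpace ℝ (Fin 2)) =>
          IsOpen W ∧ ∀ x ∈ W, ∀ y ∈ W, dist x y ≠ 1) (U i)) ∧
    (∀ U : Fin 6 → Set (EuclideanSpace ℝ (Fin 2)), Dense (⋃ i, U i) →
      (∀ i, Maximal (fun W : Set (EuclideanSpace ℝ (Fin 2)) =>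
        IsOpen W ∧ ∀ x ∈ W, ∀ y ∈ W, dist x y ≠ 1) (U i)) →
      (∃ z z', dist z z' = 1 ∧
        (∀ s : Set (Fin 6), s.ncard ≤ 4 → z ∈ closure ((⋃ j, U j) \ ⋃ i ∈ s, U i)) ∧
        ∀ s : Set (Fin 6), s.ncard ≤ 3 → z' ∈ closure ((⋃ j, U j) \ ⋃ i ∈ s, U i)) ∨
      (∃ z z', ∃ S S' : Set (Fin 6), dist z z' = 1 ∧
        (S.ncard = 4 ∧ z ∉ closure ((⋃ j, U j) \ ⋃ i ∈ S, U i) ∧
          ∀ s ⊂ S, z ∈ closure ((⋃ j, U j) \ ⋃ i ∈ s, U i)) ∧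
        (S'.ncard = 4 ∧ z' ∉ closure ((⋃ j, U j) \ ⋃ i ∈ S', U i) ∧
          ∀ s ⊂ S', z' ∈ closure ((⋃ j, U j) \ ⋃ i ∈ s, U i)) ∧ S ∪ S' = univ) ∨
      ∃ z v q, ∃ S X : Set (Fin 6),
        (S.ncard = 4 ∧ z ∉ closure ((⋃ j, U j) \ ⋃ i ∈ S, U i) ∧
          ∀ s ⊂ S, z ∈ closure ((⋃ j, U j) \ ⋃ i ∈ s, U i)) ∧
        X.ncard = 3 ∧ dist v z = 1 ∧ dist q z = 1 ∧ v ≠ q ∧ dist v q < 2 ∧
        v ∉ closure ((⋃ j, U j) \ ⋃ i ∈ X, U i) ∧ q ∉ closure ((⋃ j, U j) \ ⋃ i ∈ Xᶜ, U i)) :=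
  ⟨ext_part, fun _ hd hU => exists_pair_cover HX hU hd⟩

/-- from the blocks `NoCompCov`, `XCov` -/
theorem handPairCov2 (NC : NoCompCov) (HX : XCov) :
    (∀ V : Fin 6 → Set (EuclideanSpace ℝ (Fin 2)), (∀ i, IsOpen (V i)) →
      (∀ i, ∀ x ∈ V i, ∀ y ∈ V i, dist x y ≠ 1) → Dense (⋃ i, V i) →
      ∃ U : Fin 6 → Set (EuclideanSpace ℝ (Fin 2)), (∀ i, V i ⊆ U i) ∧ Dense (⋃ i, U i) ∧
        ∀ i, Maximal (fun W : Set (EuclideanSpace ℝ (Fin 2)) =>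
          IsOpen W ∧ ∀ x ∈ W, ∀ y ∈ W, dist x y ≠ 1) (U i)) ∧
    (∀ U : Fin 6 → Set (EuclideanSpace ℝ (Fin 2)), Dense (⋃ i, U i) →
      (∀ i, Maximal (fun W : Set (EuclideanSpace ℝ (Fin 2)) =>
        IsOpen W ∧ ∀ x ∈ W, ∀ y ∈ W, dist x y ≠ 1) (U i)) →
      ∃ z z', dist z z' = 1 ∧
        (((∀ s : Set (Fin 6), s.ncard ≤ 4 → z ∈ closure ((⋃ j, U j) \ ⋃ i ∈ s, U i)) ∧
          ∀ s : Set (Fin 6), s.ncard ≤ 3 → z' ∈ closure ((⋃ j, U j) \ ⋃ i ∈ s, U i)) ∨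
        ∃ S S' : Set (Fin 6),
          (S.ncard = 4 ∧ z ∉ closure ((⋃ j, U j) \ ⋃ i ∈ S, U i) ∧
            ∀ s ⊂ S, z ∈ closure ((⋃ j, U j) \ ⋃ i ∈ s, U i)) ∧
          (S'.ncard = 4 ∧ z' ∉ closure ((⋃ j, U j) \ ⋃ i ∈ S', U i) ∧
            ∀ s ⊂ S', z' ∈ closure ((⋃ j, U j) \ ⋃ i ∈ s, U i)) ∧ S ∪ S' = univ)) := by
  refine ⟨ext_part, fun _ hd hU => ?_⟩
  rcases exists_pair_cover' NC HX hU hd with ⟨z, z', h1, h2⟩ | ⟨z, z', S, S', h1, h2⟩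
  · exact ⟨z, z', h1, Or.inl h2⟩
  · exact ⟨z, z', h1, Or.inr ⟨S, S', h2⟩⟩

end Vale.Agent.P032.H154
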