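import Vale.Agent.P032.H154.StarDef
import Vale.Agent.P032.H416.Pair5

/-!
# P032: isolated points with six colours, top

`Iso6S` : in every frame, no point `z` with six colours such that near `z` all other points have at
most two colours and every colour is seen as one of exactly two colours at some point of the unit
circle of `z`.  `Iso6` : the same without the second condition.
`iso_of6S`, `iso_of6` : the statements for maximal families.
-/

open Set Filter Topology Metric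

noncomputable section

namespace Vale.Agent.P032.H154

open Vale.Agent.P032.Six Vale.Agent.P032.S5.H843 Vale.Agent.P032.S5.H926

/-- no isolated point with six colours without silent colours -/
def Iso6S : Prop := ∀ (U : Fin 6 → Set ℂ) (T : ℂ → Set (Fin 6)), Irr U T → Mn U T →
  ∀ z, (T z).ncard = 6 → Tame T z →
    (∀ i, ∃ q, dist q z = 1 ∧ i ∈ T q ∧ (T q).ncard = 2) → False

/-- no isolated point with six colours -/
def Iso6 : Prop := ∀ (U : Fin 6 → Set ℂ) (T : ℂ → Set (Fin 6)), Irr U T → Mn U T →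
  ∀ z, (T z).ncard = 6 → Tame T z → False

theorem Iso6.toS (H : Iso6) : Iso6S := fun U T h1 h2 z h3 h4 _ => H U T h1 h2 z h3 h4

/-- transfer of the sets `closure ((⋃ j, U j) \ ⋃ i ∈ s, U i)` -/
theorem hcdfL {U : Fin 6 → Set (EuclideanSpace ℝ (Fin 2))} (φ : ℂ ≃ₗᵢ[ℝ] EuclideanSpace ℝ (Fin 2))
    (s : Set (Fin 6)) (z : ℂ) :
    z ∈ closure ((⋃ j, φ ⁻¹' U j) \ ⋃ i ∈ s, φ ⁻¹' U i) ↔
      φ z ∈ closure ((⋃ j, U j) \ ⋃ i ∈ s, U i) := by
  have hdf : ((⋃ j, φ ⁻¹' U j) \ ⋃ i ∈ s, φ ⁻¹' U i) =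
      φ ⁻¹' ((⋃ j, U j) \ ⋃ i ∈ s, U i) := by
    rw [preimage_sdiff, preimage_iUnion, preimage_iUnion₂]
  have hcl : closure (φ ⁻¹' ((⋃ j, U j) \ ⋃ i ∈ s, U i)) =
      φ ⁻¹' closure ((⋃ j, U j) \ ⋃ i ∈ s, U i) := (φ.toHomeomorph.preimage_closure _).symm
  rw [hdf, hcl]
  rfl

/-- **the frame of a maximal family** -/
theorem exists_frameL {U : Fin 6 → Set (EuclideanSpace ℝ (Fin 2))}
    (hU : ∀ i, Maximal (fun W : Set (EuclideanSpace ℝ (Fin 2)) =>
      IsOpen W ∧ ∀ x ∈ W, ∀ y ∈ W, dist x y ≠ 1) (U i))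
    (hd : Dense (⋃ i, U i)) :
    ∃ (φ : ℂ ≃ₗᵢ[ℝ] EuclideanSpace ℝ (Fin 2)) (T : ℂ → Set (Fin 6)),
      Irr (fun i => φ ⁻¹' U i) T ∧ Mn (fun i => φ ⁻¹' U i) T := by
  let φ : ℂ ≃ₗᵢ[ℝ] EuclideanSpace ℝ (Fin 2) := Complex.orthonormalBasisOneI.repr
  have hU' : ∀ i, Maximal (fun W : Set ℂ => IsOpen W ∧ ∀ x ∈ W, ∀ y ∈ W, dist x y ≠ 1)
      (φ ⁻¹' U i) := fun i => maximal_preimage (hU i) φ
  have hd' : Dense (⋃ i, φ ⁻¹' U i) := by
    rw [← preimage_iUnion]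
    exact hd.preimage φ.toHomeomorph.isOpenMap
  have hM := Mx_of_maximal hU' hd'
  obtain ⟨T, hT, hmin, -⟩ := exists_frameN (U := fun i => φ ⁻¹' U i) hM
    (fun i x hx => (mem_iff_of_maximal (hU' i) x).2 hx) (N := fun _ => 6)
    (fun x => Filter.Eventually.of_forall fun _ => le_rfl) (fun _ => by norm_num) (fun z _ => by
      refine ⟨univ, ?_, ?_⟩
      · exact (Set.ncard_le_card _).trans (by simp)
      · filter_upwards with w
        by_cases hw : w ∈ XX (fun i => φ ⁻¹' U i)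
        · obtain ⟨i, hi⟩ := hM.Kst_nonempty w
          exact ⟨i, mem_univ _, Or.inr ⟨hw, Kst_sub w hi⟩⟩
        · have h1 : ∃ i, w ∈ φ ⁻¹' U i := by simpa [XX] using hw
          obtain ⟨i, hi⟩ := h1
          exact ⟨i, mem_univ _, Or.inl hi⟩)
  exact ⟨φ, T, hT, hmin⟩

/-- the palette of the frame is in the palette of the closures -/
theorem pal_sub {U : Fin 6 → Set (EuclideanSpace ℝ (Fin 2))}
    {φ : ℂ ≃ₗᵢ[ℝ] EuclideanSpace ℝ (Fin 2)} {T : ℂ → Set (Fin 6)}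
    (h : Irr (fun i => φ ⁻¹' U i) T) (w : ℂ) : T w ⊆ {i | φ w ∈ closure (U i)} := by
  intro i hi
  have h1 : w ∈ closure (φ ⁻¹' U i) := h.sub w hi
  have h2 : closure (φ ⁻¹' U i) = φ ⁻¹' closure (U i) :=
    (φ.toHomeomorph.preimage_closure (U i)).symm
  rw [h2] at h1
  exact h1

theorem le_pal {U : Fin 6 → Set (EuclideanSpace ℝ (Fin 2))}
    {φ : ℂ ≃ₗᵢ[ℝ] EuclideanSpace ℝ (Fin 2)} {T : ℂ → Set (Fin 6)}
    (h : Irr (fun i => φ ⁻¹' U i) T) (w : ℂ) :
    (T w).ncard ≤ {i | φ w ∈ closure (U i)}.ncard :=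
  Set.ncard_le_ncard (pal_sub h w) (Set.toFinite _)

/-- a point near which no five of the sets suffice has six colours in the frame -/
theorem six_of_XU {U : Fin 6 → Set (EuclideanSpace ℝ (Fin 2))}
    {φ : ℂ ≃ₗᵢ[ℝ] EuclideanSpace ℝ (Fin 2)} {T : ℂ → Set (Fin 6)}
    (h : Irr (fun i => φ ⁻¹' U i) T) {x : ℂ} (hx : φ x ∈ XU U 5) : (T x).ncard = 6 := by
  have h1 : (T x).ncard ≤ 6 := (Set.ncard_le_card _).trans (by simp)
  have h2 : ¬ (T x).ncard ≤ 5 := fun h3 =>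
    Irr_suff h x ((hcdfL φ (T x) x).2 (hx (T x) h3))
  omega

theorem tendsto_punct (φ : ℂ ≃ₗᵢ[ℝ] EuclideanSpace ℝ (Fin 2)) (z : ℂ) :
    Tendsto φ (𝓝[≠] z) (𝓝[≠] (φ z)) := by
  refine tendsto_nhdsWithin_iff.2 ⟨φ.continuous.continuousAt.tendsto.mono_left inf_le_left, ?_⟩
  filter_upwards [self_mem_nhdsWithin] with w hw h3
  exact hw (φ.injective h3)

/-- **isolated points with six colours** in a maximal family -/
theorem iso_of6 (H : Iso6) {U : Fin 6 → Set (EuclideanSpace ℝ (Fin 2))}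
    (hU : ∀ i, Maximal (fun W : Set (EuclideanSpace ℝ (Fin 2)) =>
      IsOpen W ∧ ∀ x ∈ W, ∀ y ∈ W, dist x y ≠ 1) (U i))
    (hd : Dense (⋃ i, U i)) :
    ∀ z ∈ XU U 5, ∃ᶠ w in 𝓝[≠] z, 3 ≤ {i | w ∈ closure (U i)}.ncard := by
  intro z hz
  obtain ⟨φ, T, h1, h2⟩ := exists_frameL hU hd
  have e : φ (φ.symm z) = z := φ.apply_symm_apply z
  rw [← e] at hz ⊢
  have h3 := six_of_XU h1 hz
  by_contra hcon
  refine H _ T h1 h2 _ h3 ?_
  have h4 : ∀ᶠ w in 𝓝[≠] (φ.symm z), ¬ 3 ≤ {i | φ w ∈ closure (U i)}.ncard :=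
    (tendsto_punct φ _).eventually (Filter.not_frequently.1 hcon)
  filter_upwards [h4] with w hw
  have := le_pal h1 w
  omega

/-- the same without silent colours -/
theorem iso_of6S (H : Iso6S) {U : Fin 6 → Set (EuclideanSpace ℝ (Fin 2))}
    (hU : ∀ i, Maximal (fun W : Set (EuclideanSpace ℝ (Fin 2)) =>
      IsOpen W ∧ ∀ x ∈ W, ∀ y ∈ W, dist x y ≠ 1) (U i))
    (hd : Dense (⋃ i, U i)) :
    ∀ z ∈ XU U 5, (∃ᶠ w in 𝓝[≠] z, 3 ≤ {i | w ∈ closure (U i)}.ncard) ∨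
      ∃ i, ∀ q, dist q z = 1 → q ∈ closure (U i) → 3 ≤ {j | q ∈ closure (U j)}.ncard := by
  intro z hz
  obtain ⟨φ, T, h1, h2⟩ := exists_frameL hU hd
  have e : φ (φ.symm z) = z := φ.apply_symm_apply z
  rw [← e] at hz ⊢
  have h3 := six_of_XU h1 hz
  by_contra hcon
  rw [not_or] at hcon
  refine H _ T h1 h2 _ h3 ?_ ?_
  · have h4 : ∀ᶠ w in 𝓝[≠] (φ.symm z), ¬ 3 ≤ {i | φ w ∈ closure (U i)}.ncard :=
      (tendsto_punct φ _).eventually (Filter.not_frequently.1 hcon.1)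
    filter_upwards [h4] with w hw
    have := le_pal h1 w
    omega
  · intro i
    have h5 := hcon.2
    push Not at h5
    obtain ⟨q, hq, hqi, hq3⟩ := h5 i
    have eq : φ (φ.symm q) = q := φ.apply_symm_apply q
    have hd1 : dist (φ.symm q) (φ.symm z) = 1 := by
      rw [← φ.dist_map, eq]; exact hq
    have h7 : ∀ j, j ∈ T (φ.symm z) := by
      have h8 : T (φ.symm z) = univ := by
        refine Set.eq_of_subset_of_ncard_le (subset_univ _) ?_ (Set.toFinite _)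
        rw [h3, Set.ncard_univ]
        simp
      intro j
      rw [h8]
      exact mem_univ _
    have h6 : 2 ≤ (T (φ.symm q)).ncard := by
      by_contra hc
      obtain ⟨j, hj⟩ := h1.ne (φ.symm q)
      have h2 : T (φ.symm q) ⊆ {j} := fun m hm =>
        (Set.ncard_le_one (Set.toFinite _)).1 (by omega) m hm j hj
      exact h1.mx.notMem' (h1.mem_of_single h2) hd1 (h1.sub _ (h7 j))
    have h8 : {j | φ (φ.symm q) ∈ closure (U j)} = {j | q ∈ closure (U j)} := by rw [eq]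
    have h9 : T (φ.symm q) = {j | q ∈ closure (U j)} := by
      rw [← h8]
      refine Set.eq_of_subset_of_ncard_le (pal_sub h1 _) ?_ (Set.toFinite _)
      rw [h8]
      omega
    refine ⟨φ.symm q, hd1, ?_, ?_⟩
    · rw [h9]
      exact hqi
    · have h10 : {j | q ∈ closure (U j)}.ncard < 3 := hq3
      rw [h9] at h6 ⊢
      omega

end Vale.Agent.P032.H154
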