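import Vale.Agent.P032.H306.Y.PenB
import Vale.Agent.P032.H416.Props

/-!
# P032: the block `Pair5` from the rows on centres with five and six colours

`No6 T`  : a point of the circle of a point with six colours has at most three colours.
`Pen T`  : a point with five colours and a point with at least four colours at distance one has the
five exact diagonals (`P5`).
`pair5_of` : `Pair5` from `Pair6` (row Z), `PenY`, `HBY`, `H12Y` (rows Y; the later rows may use the
earlier ones).
-/

open Set Filter Topology Metric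

noncomputable section

namespace Vale.Agent.P032.H154

open Vale.Agent.P032.Six Vale.Agent.P032.S5.H450

/-- no unit pair of a point with six colours and a point with at least four colours -/
def No6 (T : ℂ → Set (Fin 6)) : Prop :=
  ∀ z v, dist z v = 1 → (T z).ncard = 6 → (T v).ncard ≤ 3

/-- centres with five colours and a neighbour with at least four colours have the five exact
diagonals -/
def Pen (T : ℂ → Set (Fin 6)) : Prop :=
  ∀ z v, dist z v = 1 → (T z).ncard = 5 → 4 ≤ (T v).ncard → ∃ c : Fin 5 → Fin 6, P5 T z c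

/-- row Z -/
def Pair6 : Prop := ∀ (U : Fin 6 → Set ℂ) (T : ℂ → Set (Fin 6)), Irr U T → Mn U T → No6 T

/-- row Y.Pen -/
def PenY : Prop := ∀ (U : Fin 6 → Set ℂ) (T : ℂ → Set (Fin 6)), Irr U T → Mn U T → No6 T → Pen T

/-- row Y.B: every neighbour with at least four colours of a Pen centre has both apexes with the
same exact diagonal -/
def HBY : Prop := ∀ (U : Fin 6 → Set ℂ) (T : ℂ → Set (Fin 6)), Irr U T → Mn U T → No6 T → Pen T →
  ∀ (z : ℂ) (c : Fin 5 → Fin 6), P5 T z c → ∀ y, dist y z = 1 → 4 ≤ (T y).ncard →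
    ∃ j : Fin 5, ∀ p, dist p z = 1 → dist p y = 1 → T p = {c j, c (j + 2)}

/-- row Y.h12: no `(1,2)` network at a Pen centre -/
def H12Y : Prop := ∀ (U : Fin 6 → Set ℂ) (T : ℂ → Set (Fin 6)), Irr U T → Mn U T → No6 T → Pen T →
  ∀ (z : ℂ) (c : Fin 5 → Fin 6), P5 T z c →
    (∀ y, dist y z = 1 → 4 ≤ (T y).ncard →
      ∃ j : Fin 5, ∀ p, dist p z = 1 → dist p y = 1 → T p = {c j, c (j + 2)}) →
    ∀ (X : Set (Fin 6)) (v q q' : ℂ), Nd T X z v q → Nd T X z v q' → Xᶜ ⊆ T z → q = q'

/-- a point with five colours has no neighbour with at least four colours -/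
theorem no5_of {U : Fin 6 → Set ℂ} {T : ℂ → Set (Fin 6)} (h : Irr U T) (hmin : Mn U T)
    (h6 : No6 T) (HP : PenY) (HB : HBY) (H12 : H12Y) {z v : ℂ} (hzv : dist z v = 1)
    (h5 : (T z).ncard = 5) (h4 : 4 ≤ (T v).ncard) : False := by
  have hp := HP U T h hmin h6
  obtain ⟨c, P⟩ := hp z v hzv h5 h4
  have hB := HB U T h hmin h6 hp z c P
  exact H306.Y.p5_false_of_B P h hmin hB (H12 U T h hmin h6 hp z c P hB)

/-- **`Pair5`** from the rows -/
theorem pair5_of (H6 : Pair6) (HP : PenY) (HB : HBY) (H12 : H12Y) : Pair5 := by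
  intro U T h hmin z v hzv h5 h4
  have h6 := H6 U T h hmin
  have hle : (T z).ncard ≤ 6 := by
    calc (T z).ncard ≤ Nat.card (Fin 6) := Set.ncard_le_card (T z)
      _ = 6 := by simp
  rcases (show (T z).ncard = 5 ∨ (T z).ncard = 6 by omega) with h7 | h7
  · exact no5_of h hmin h6 HP HB H12 hzv h7 h4
  · have := h6 z v hzv h7
    omega

end Vale.Agent.P032.H154
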