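import Vale.Agent.P032.H154.P5Glue

/-!
# P032: the block `Pair5` when there are no Pen centres

`NoPen5` : no point with the five exact diagonals (`P5`) has a point with at least four colours on
its unit circle.
`pair5_pen` : `Pair5` from `Pair6` (row Z), `PenY`, `NoPen5`.
`pair5_pen'` : the same when the whole row on centres with five colours is one theorem.
-/

open Set Filter Topology Metric

noncomputable section

namespace Vale.Agent.P032.H154

open Vale.Agent.P032.Six Vale.Agent.P032.S5.H450

/-- row Y: no Pen centre with a neighbour with at least four colours -/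
def NoPen5 : Prop := ∀ (U : Fin 6 → Set ℂ) (T : ℂ → Set (Fin 6)), Irr U T → Mn U T → No6 T →
  Pen T → ∀ (z v : ℂ) (c : Fin 5 → Fin 6), P5 T z c → dist z v = 1 → 4 ≤ (T v).ncard → False

/-- row Y in one: no unit pair of a point with five colours and a point with at least four -/
def No5Y : Prop := ∀ (U : Fin 6 → Set ℂ) (T : ℂ → Set (Fin 6)), Irr U T → Mn U T → No6 T →
  ∀ z v : ℂ, dist z v = 1 → (T z).ncard = 5 → 4 ≤ (T v).ncard → False

theorem no5Y_of (HP : PenY) (HN : NoPen5) : No5Y := by
  intro U T h hmin h6 z v hzv h5 h4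
  have hp := HP U T h hmin h6
  obtain ⟨c, P⟩ := hp z v hzv h5 h4
  exact HN U T h hmin h6 hp z v c P hzv h4

/-- `Pair5` from row Z and the whole row Y -/
theorem pair5_of6 (H6 : Pair6) (H5 : No5Y) : Pair5 := by
  intro U T h hmin z v hzv h5 h4
  have h6 := H6 U T h hmin
  have hle : (T z).ncard ≤ 6 := by
    calc (T z).ncard ≤ Nat.card (Fin 6) := Set.ncard_le_card (T z)
      _ = 6 := by simp
  rcases (show (T z).ncard = 5 ∨ (T z).ncard = 6 by omega) with h7 | h7
  · exact H5 U T h hmin h6 z v hzv h7 h4
  · have := h6 z v hzv h7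
    omega

/-- **`Pair5`** from row Z, `PenY`, `NoPen5` -/
theorem pair5_pen (H6 : Pair6) (HP : PenY) (HN : NoPen5) : Pair5 := pair5_of6 H6 (no5Y_of HP HN)

end Vale.Agent.P032.H154
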