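import Vale.Agent.P032.H416.Top6

/-!
# P032: the statement from the world without split points and without covering pairs

`NoSplit T` (765): no point with four colours has its palette in the union of the palettes of two
points with three colours of its unit circle.
`XSplit` : no frame `DF` with `NoSplit` and `NoCov`.
`exists_pair_split` : from `XSplit` alone, a statement in the plane.
-/

open Set Filter Topology Metric

noncomputable section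

namespace Vale.Agent.P032.H154

open Vale.Agent.P032.Six Vale.Agent.P032.S5.H843 Vale.Agent.P032.S5.H926 Vale.Agent.P032.Words6
  Vale.Agent.P032.S5.H138

/-- no split points in the frame -/
theorem noSplit_of {U : Fin 6 → Set (EuclideanSpace ℝ (Fin 2))}
    {φ : ℂ ≃ₗᵢ[ℝ] EuclideanSpace ℝ (Fin 2)} {T : ℂ → Set (Fin 6)}
    (hM : ∀ z, (T z).ncard = 4 → MSU U (T z) (φ z)) (hs : ∀ z, SufU U (T z) (φ z))
    (hcon : ¬ ∃ z v q, ∃ S X Y : Set (Fin 6), MSU U S z ∧ X.ncard = 3 ∧ Y.ncard = 3 ∧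
      dist v z = 1 ∧ dist q z = 1 ∧ SufU U X v ∧ SufU U Y q ∧ S ⊆ X ∪ Y) : NoSplit T := by
  intro z v q hv hq h4 hv3 hq3 hsub
  exact hcon ⟨φ z, φ v, φ q, T z, T v, T q, hM z h4, hv3, hq3, by rw [φ.dist_map]; exact hv,
    by rw [φ.dist_map]; exact hq, hs v, hs q, hsub⟩

/-- **Statement in the plane**, from block X without split points and covering pairs. -/
theorem exists_pair_split (HX : XSplit) {U : Fin 6 → Set (EuclideanSpace ℝ (Fin 2))}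
    (hU : ∀ i, Maximal (fun W : Set (EuclideanSpace ℝ (Fin 2)) =>
      IsOpen W ∧ ∀ x ∈ W, ∀ y ∈ W, dist x y ≠ 1) (U i))
    (hd : Dense (⋃ i, U i)) :
    (∃ z z', dist z z' = 1 ∧ z ∈ XU U 4 ∧ z' ∈ XU U 3) ∨
      (∃ z z', ∃ S S' : Set (Fin 6), dist z z' = 1 ∧ MSU U S z ∧ MSU U S' z' ∧ S ∪ S' = univ) ∨
      ∃ z v q, ∃ S X Y : Set (Fin 6), MSU U S z ∧ X.ncard = 3 ∧ Y.ncard = 3 ∧
        dist v z = 1 ∧ dist q z = 1 ∧ SufU U X v ∧ SufU U Y q ∧ S ⊆ X ∪ Y := by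
  by_contra hcon
  rw [not_or, not_or] at hcon
  obtain ⟨hcon1, hcon2, hcon3⟩ := hcon
  obtain ⟨φ, T, h1, h2, h3, hM, hs⟩ := exists_frame6 hU hd
    fun z z' h4 h5 h6 => hcon1 ⟨z, z', h4, h5, h6⟩
  have hN := noSplit_of hM hs hcon3
  exact HX _ T (df_of_nc' h1 h2 h3 hN.noComp) hN (Vale.Agent.P032.Six.noCov_of h3 hM hcon2)

/-- from the block `XSplit`, in the words of Mathlib -/
theorem handPairSplit (HX : XSplit)
    (U : Fin 6 → Set (EuclideanSpace ℝ (Fin 2))) (hd : Dense (⋃ i, U i))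
    (hU : ∀ i, Maximal (fun W : Set (EuclideanSpace ℝ (Fin 2)) =>
      IsOpen W ∧ ∀ x ∈ W, ∀ y ∈ W, dist x y ≠ 1) (U i)) :
    (∃ z z', dist z z' = 1 ∧
      (∀ s : Set (Fin 6), s.ncard ≤ 4 → z ∈ closure ((⋃ j, U j) \ ⋃ i ∈ s, U i)) ∧
      ∀ s : Set (Fin 6), s.ncard ≤ 3 → z' ∈ closure ((⋃ j, U j) \ ⋃ i ∈ s, U i)) ∨
    (∃ z z', ∃ S S' : Set (Fin 6), dist z z' = 1 ∧
      (S.ncard = 4 ∧ z ∉ closure ((⋃ j, U j) \ ⋃ i ∈ S, U i) ∧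
        ∀ s ⊂ S, z ∈ closure ((⋃ j, U j) \ ⋃ i ∈ s, U i)) ∧
      (S'.ncard = 4 ∧ z' ∉ closure ((⋃ j, U j) \ ⋃ i ∈ S', U i) ∧
        ∀ s ⊂ S', z' ∈ closure ((⋃ j, U j) \ ⋃ i ∈ s, U i)) ∧ S ∪ S' = univ) ∨
    ∃ z v q, ∃ S X Y : Set (Fin 6),
      (S.ncard = 4 ∧ z ∉ closure ((⋃ j, U j) \ ⋃ i ∈ S, U i) ∧
        ∀ s ⊂ S, z ∈ closure ((⋃ j, U j) \ ⋃ i ∈ s, U i)) ∧
      X.ncard = 3 ∧ Y.ncard = 3 ∧ dist v z = 1 ∧ dist q z = 1 ∧
      v ∉ closure ((⋃ j, U j) \ ⋃ i ∈ X, U i) ∧ q ∉ closure ((⋃ j, U j) \ ⋃ i ∈ Y, U i) ∧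
      S ⊆ X ∪ Y :=
  exists_pair_split HX hU hd

end Vale.Agent.P032.H154
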