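import Vale.Agent.P032.H416.XDef0

/-!
# P032: the world `NoThree` with all orders (light imports)

`Pair5T` (386): in the world `NoThree` there is no unit pair of a point with at least five colours
and a point with at least four.
`NoCompT` (64): in the world `NoThree` without such pairs, `NoComp T`.
`Star` : every frame has a point with at least four colours and three points with at least four
colours on its unit circle.
`Pair5TI`, `Pair5I` : the pairs of `Pair5T`, `Pair5` only at isolated points (`Tame`).
-/

open Set Filter Topology Metric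

noncomputable section

namespace Vale.Agent.P032.H154

open Vale.Agent.P032.Six

/-- no unit pairs of orders five and four, degree at most two -/
def Pair5T : Prop := ∀ (U : Fin 6 → Set ℂ) (T : ℂ → Set (Fin 6)), Irr U T → Mn U T → NoThree T →
  NoPair5 T

/-- no complementary palettes, degree at most two -/
def NoCompT : Prop := ∀ (U : Fin 6 → Set ℂ) (T : ℂ → Set (Fin 6)), Irr U T → Mn U T →
  NoPair5 T → NoThree T → NoComp T

/-- there is a point of degree at least three -/
def Star : Prop := ∀ (U : Fin 6 → Set ℂ) (T : ℂ → Set (Fin 6)), Irr U T → Mn U T → NoThree T →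
  False

/-- near `z` all other points have at most two colours -/
def Tame (T : ℂ → Set (Fin 6)) (z : ℂ) : Prop := ∀ᶠ w in 𝓝[≠] z, (T w).ncard ≤ 2

/-- the pairs of `Pair5` at isolated points -/
def Pair5I : Prop := ∀ (U : Fin 6 → Set ℂ) (T : ℂ → Set (Fin 6)), Irr U T → Mn U T →
  ∀ z v, dist z v = 1 → 5 ≤ (T z).ncard → 4 ≤ (T v).ncard → ¬ Tame T z

/-- the pairs of `Pair5T` at isolated points -/
def Pair5TI : Prop := ∀ (U : Fin 6 → Set ℂ) (T : ℂ → Set (Fin 6)), Irr U T → Mn U T → NoThree T →
  ∀ z v, dist z v = 1 → 5 ≤ (T z).ncard → 4 ≤ (T v).ncard → ¬ Tame T z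

end Vale.Agent.P032.H154
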